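import Crest.Agent.Helper68.PP.Main
import Crest.Prelude.Def_RandomGraph

/-!
# From a spread bound on embeddings to statement S0076 (helper68; insurance package, row 55)

`s0076_of_spread` : the conclusion of S0076 follows from the SPREAD hypothesis
"every nonempty set `T` of edge slots of `K_n` lies in the image of at most a
`(32 e^50 p)^|T|` fraction of the embeddings `W ↪ Fin n` of `H`".
-/

set_option autoImplicit false

namespace Crest.Agent.Helper68.PP

open Finset Crest.CombinatoricsR.RandomGraph

variable {n : ℕ} {W : Type} [Fintype W] [DecidableEq W]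

/-- The set of edge slots of `K_n` occupied by the image of `H` under the embedding `f`. -/
def slotImage (H : SimpleGraph W) [DecidableRel H.Adj] (f : W ↪ Fin n) : Finset (EdgeSlot n) :=
  H.edgeFinset.attach.image (fun e =>
    (⟨Sym2.map f e.1, fun hd => H.not_isDiag_of_mem_edgeSet (SimpleGraph.mem_edgeFinset.1 e.2)
      ((Sym2.isDiag_map f.injective).1 hd)⟩ : EdgeSlot n))

theorem card_slotImage_le (H : SimpleGraph W) [DecidableRel H.Adj] (f : W ↪ Fin n) :
    (slotImage H f).card ≤ H.edgeFinset.card := by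
  unfold slotImage
  exact Finset.card_image_le.trans (by rw [Finset.card_attach])

theorem forall_slotImage_iff (H : SimpleGraph W) [DecidableRel H.Adj] (f : W ↪ Fin n)
    (ω : EdgeSlot n → Bool) :
    (∀ z ∈ slotImage H f, ω z = true) ↔ H ≤ (graphOf ω).comap f := by
  constructor
  · intro h u v huv
    have hmem : s(u, v) ∈ H.edgeFinset := SimpleGraph.mem_edgeFinset.2 huv
    have hne : f u ≠ f v := fun he => huv.ne (f.injective he)
    have hnd : ¬ (s(f u, f v) : Sym2 (Fin n)).IsDiag := by simpa using hne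
    have hz : (⟨s(f u, f v), hnd⟩ : EdgeSlot n) ∈ slotImage H f := by
      unfold slotImage
      rw [Finset.mem_image]
      exact ⟨⟨s(u, v), hmem⟩, Finset.mem_attach _ _, rfl⟩
    have hω := h _ hz
    show (graphOf ω).Adj (f u) (f v)
    unfold graphOf
    rw [SimpleGraph.fromEdgeSet_adj]
    exact ⟨⟨hnd, hω⟩, hne⟩
  · intro h z hz
    unfold slotImage at hz
    obtain ⟨⟨e, he⟩, -, rfl⟩ := Finset.mem_image.1 hz
    induction e using Sym2.ind with
    | _ u v =>
      have huv : H.Adj u v := SimpleGraph.mem_edgeFinset.1 he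
      have hadj : (graphOf ω).Adj (f u) (f v) := h huv
      unfold graphOf at hadj
      rw [SimpleGraph.fromEdgeSet_adj] at hadj
      obtain ⟨⟨hnd, hω⟩, -⟩ := hadj
      exact hω

theorem isContained_graphOf_iff (H : SimpleGraph W) [DecidableRel H.Adj]
    (ω : EdgeSlot n → Bool) :
    H.IsContained (graphOf ω) ↔ ∃ f : W ↪ Fin n, ∀ z ∈ slotImage H f, ω z = true := by
  rw [SimpleGraph.isContained_iff_exists_le_comap]
  exact exists_congr (fun f => (forall_slotImage_iff H f ω).symm)

/-- **S0076 from a spread bound.**  If every nonempty set `T` of edge slots is contained in the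
slot image of at most a `(32 e^50 p)^|T|` fraction of all embeddings `W ↪ Fin n`, then the
binomial random graph with edge probability `min 1 (2^11 e^50 p (1 + log₂ h))` contains a copy of
`H` with probability at least `1/2`. -/
theorem s0076_of_spread (n : ℕ) (W : Type) [Fintype W] [DecidableEq W] (H : SimpleGraph W)
    [DecidableRel H.Adj] (hW : Fintype.card W ≤ n) (hH : 1 ≤ H.edgeFinset.card)
    (p : ℝ) (hp0 : 0 ≤ p)
    (hSL : ∀ T : Finset (EdgeSlot n), T.Nonempty →
      ((Finset.univ.filter (fun f : W ↪ Fin n => T ⊆ slotImage H f)).card : ℝ)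
        ≤ (32 * Real.exp 50 * p) ^ T.card * (Fintype.card (W ↪ Fin n) : ℝ)) :
    (1 : ℝ) / 2 ≤ gnpProb n
      (min 1 (2048 * Real.exp 50 * p * (1 + Real.logb 2 (H.edgeFinset.card : ℝ))))
      {G | H.IsContained G} := by
  classical
  haveI : Nonempty (W ↪ Fin n) :=
    Function.Embedding.nonempty_of_card_le (by rw [Fintype.card_fin]; exact hW)
  have hq : 0 ≤ 32 * Real.exp 50 * p := by positivity
  have hpp := pp_spread (X := EdgeSlot n) (I := W ↪ Fin n) (slotImage H) H.edgeFinset.card
    (fun f => card_slotImage_le H f) (32 * Real.exp 50 * p) hq hSL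
  -- rewrite the event
  have hset : {ω : EdgeSlot n → Bool | graphOf ω ∈ {G | H.IsContained G}}
      = {ω : EdgeSlot n → Bool | ∃ f : W ↪ Fin n, ∀ z ∈ slotImage H f, ω z = true} := by
    ext ω
    exact isContained_graphOf_iff H ω
  unfold gnpProb
  rw [hset]
  -- monotonicity in the bias
  have hup : ∀ ω ω' : EdgeSlot n → Bool,
      ω ∈ {ω : EdgeSlot n → Bool | ∃ f : W ↪ Fin n, ∀ z ∈ slotImage H f, ω z = true} →
      (∀ x, ω x = true → ω' x = true) →
      ω' ∈ {ω : EdgeSlot n → Bool | ∃ f : W ↪ Fin n, ∀ z ∈ slotImage H f, ω z = true} := by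
    rintro ω ω' ⟨f, hf⟩ hle
    exact ⟨f, fun z hz => hle z (hf z hz)⟩
  have hlog : ((Nat.log 2 H.edgeFinset.card : ℕ) : ℝ) ≤ Real.logb 2 (H.edgeFinset.card : ℝ) := by
    have := Real.natLog_le_logb H.edgeFinset.card 2
    simpa using this
  have hle : min 1 (64 * (32 * Real.exp 50 * p) * ((Nat.log 2 H.edgeFinset.card : ℝ) + 1))
      ≤ min 1 (2048 * Real.exp 50 * p * (1 + Real.logb 2 (H.edgeFinset.card : ℝ))) := by
    refine min_le_min le_rfl ?_
    have h1 : 64 * (32 * Real.exp 50 * p) = 2048 * Real.exp 50 * p := by ring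
    rw [h1]
    have h2 : 0 ≤ 2048 * Real.exp 50 * p := by positivity
    exact mul_le_mul_of_nonneg_left (by linarith) h2
  have h0 : 0 ≤ min 1 (64 * (32 * Real.exp 50 * p) * ((Nat.log 2 H.edgeFinset.card : ℝ) + 1)) := by
    refine le_min zero_le_one ?_
    have : (0 : ℝ) ≤ (Nat.log 2 H.edgeFinset.card : ℝ) := Nat.cast_nonneg _
    positivity
  exact hpp.trans (bernoulliProb_mono_upSet _ hup h0 hle (min_le_left _ _))

end Crest.Agent.Helper68.PP
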