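import Crest.Agent.Helper68.PP.Scaled
import Crest.Agent.Helper68.PP.Graph

/-!
# S0076 from a size-dependent spread bound (helper68; insurance package, row 55)

`s0076_of_scaled_spread` : the conclusion of S0076 follows if every nonempty set `T` of edge
slots lies in the slot image of at most a `(κ |T| · p)^|T|` fraction of the embeddings of `H`,
where the dyadic maxima `K m ≥ κ t` (`t ∈ (m/2, m]`) satisfy
`∑_{j ≤ ⌊log₂ h⌋} K (h / 2^j) ≤ 32 e^50 (1 + log₂ h)`.
(Constant `κ = K = 32 e^50` recovers `s0076_of_spread`.)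
-/

set_option autoImplicit false

namespace Crest.Agent.Helper68.PP

open Finset Crest.CombinatoricsR.RandomGraph

/-- Transfer from the Bernoulli statement on edge slots to `gnpProb`, with monotonicity. -/
theorem gnpProb_isContained_ge (n : ℕ) (W : Type) [Fintype W] [DecidableEq W]
    (H : SimpleGraph W) [DecidableRel H.Adj] {P₀ P : ℝ} (h0 : 0 ≤ P₀) (hle : P₀ ≤ P)
    (hP1 : P ≤ 1)
    (hB : (1 : ℝ) / 2 ≤ Crest.FinProb.bernoulliProb P₀
      {ω : EdgeSlot n → Bool | ∃ f : W ↪ Fin n, ∀ z ∈ slotImage H f, ω z = true}) :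
    (1 : ℝ) / 2 ≤ gnpProb n P {G | H.IsContained G} := by
  have hset : {ω : EdgeSlot n → Bool | graphOf ω ∈ {G | H.IsContained G}}
      = {ω : EdgeSlot n → Bool | ∃ f : W ↪ Fin n, ∀ z ∈ slotImage H f, ω z = true} := by
    ext ω
    exact isContained_graphOf_iff H ω
  unfold gnpProb
  rw [hset]
  have hup : ∀ ω ω' : EdgeSlot n → Bool,
      ω ∈ {ω : EdgeSlot n → Bool | ∃ f : W ↪ Fin n, ∀ z ∈ slotImage H f, ω z = true} →
      (∀ x, ω x = true → ω' x = true) →
      ω' ∈ {ω : EdgeSlot n → Bool | ∃ f : W ↪ Fin n, ∀ z ∈ slotImage H f, ω z = true} := by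
    rintro ω ω' ⟨f, hf⟩ hle'
    exact ⟨f, fun z hz => hle' z (hf z hz)⟩
  exact hB.trans (bernoulliProb_mono_upSet _ hup h0 hle hP1)

/-- **S0076 from a size-dependent spread bound.** -/
theorem s0076_of_scaled_spread (n : ℕ) (W : Type) [Fintype W] [DecidableEq W]
    (H : SimpleGraph W) [DecidableRel H.Adj] (hW : Fintype.card W ≤ n)
    (p : ℝ) (hp0 : 0 ≤ p) (κ K : ℕ → ℝ) (hκ0 : ∀ t, 0 ≤ κ t) (hK0 : ∀ m, 0 ≤ K m)
    (hK : ∀ m t, m < 2 * t → t ≤ m → κ t ≤ K m)
    (hsum : ∑ j ∈ Finset.range (Nat.log 2 H.edgeFinset.card + 1), K (H.edgeFinset.card / 2 ^ j)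
      ≤ 32 * Real.exp 50 * (1 + Real.logb 2 (H.edgeFinset.card : ℝ)))
    (hSL : ∀ T : Finset (EdgeSlot n), T.Nonempty →
      ((Finset.univ.filter (fun f : W ↪ Fin n => T ⊆ slotImage H f)).card : ℝ)
        ≤ (κ T.card * p) ^ T.card * (Fintype.card (W ↪ Fin n) : ℝ)) :
    (1 : ℝ) / 2 ≤ gnpProb n
      (min 1 (2048 * Real.exp 50 * p * (1 + Real.logb 2 (H.edgeFinset.card : ℝ))))
      {G | H.IsContained G} := by
  classical
  have : Nonempty (W ↪ Fin n) :=
    Function.Embedding.nonempty_of_card_le (by rw [Fintype.card_fin]; exact hW)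
  have hpp := pp_scaled_spread (X := EdgeSlot n) (I := W ↪ Fin n) (slotImage H)
    H.edgeFinset.card (fun f => card_slotImage_le H f) (fun t => κ t * p)
    (fun t => mul_nonneg (hκ0 t) hp0) (fun m => 64 * p * K m)
    (fun m => by have := hK0 m; positivity)
    (fun m t h1 h2 => by
      have := hK m t h1 h2
      nlinarith [mul_le_mul_of_nonneg_right this hp0]) hSL
  have hsum' : ∑ j ∈ Finset.range (Nat.log 2 H.edgeFinset.card + 1),
      64 * p * K (H.edgeFinset.card / 2 ^ j)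
      ≤ 2048 * Real.exp 50 * p * (1 + Real.logb 2 (H.edgeFinset.card : ℝ)) := by
    rw [← Finset.mul_sum]
    have h1 : (0 : ℝ) ≤ 64 * p := by positivity
    have := mul_le_mul_of_nonneg_left hsum h1
    linarith
  have h0 : 0 ≤ min 1 (∑ j ∈ Finset.range (Nat.log 2 H.edgeFinset.card + 1),
      64 * p * K (H.edgeFinset.card / 2 ^ j)) := by
    refine le_min zero_le_one (Finset.sum_nonneg (fun j _ => ?_))
    have := hK0 (H.edgeFinset.card / 2 ^ j)
    positivity
  exact gnpProb_isContained_ge n W H h0 (min_le_min le_rfl hsum') (min_le_left _ _) hpp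

end Crest.Agent.Helper68.PP
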