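import Crest.Agent.Helper68.PP.Weights

/-!
# Park–Pham round lemma and induction (helper68, insurance package for S0076)

`miss p F` = probability that a Bernoulli(`p`) subset contains no member of `F`.
Main result `miss_bound`: if every cover of an `ℓ`-bounded family `F` costs at least `c`
(cost at density `q`), then after `k` rounds (`ℓ < 2 ^ k`) of density `64 q`,
`c * miss (1 - (1 - 64 q) ^ k) F ≤ 1/4`.
-/

set_option autoImplicit false

namespace Crest.Agent.Helper68.PP

open Finset

variable {X : Type*} [Fintype X] [DecidableEq X]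

/-- `W` contains a member of `F`. -/
def Hits (F : Finset (Finset X)) (W : Finset X) : Prop := ∃ S ∈ F, S ⊆ W

instance (F : Finset (Finset X)) (W : Finset X) : Decidable (Hits F W) := by
  unfold Hits; infer_instance

/-- Every member of `F` contains a member of `G`. -/
def Covers (G F : Finset (Finset X)) : Prop := ∀ S ∈ F, ∃ T ∈ G, T ⊆ S

/-- Cost of a family at density `q`. -/
noncomputable def cost (q : ℝ) (G : Finset (Finset X)) : ℝ := ∑ T ∈ G, q ^ T.card

/-- The residual family `{S \ W}`. -/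
def resid (F : Finset (Finset X)) (W : Finset X) : Finset (Finset X) := F.image (fun S => S \ W)

/-- Probability that a Bernoulli(`p`) subset contains no member of `F`. -/
noncomputable def miss (p : ℝ) (F : Finset (Finset X)) : ℝ :=
  ∑ W : Finset X, wt p W * (if Hits F W then 0 else 1)

theorem cost_nonneg {q : ℝ} (hq : 0 ≤ q) (G : Finset (Finset X)) : 0 ≤ cost q G :=
  Finset.sum_nonneg (fun _ _ => pow_nonneg hq _)

theorem cost_union_le {q : ℝ} (hq : 0 ≤ q) (G B : Finset (Finset X)) :
    cost q (G ∪ B) ≤ cost q G + cost q B := by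
  unfold cost
  have h := Finset.sum_union_inter (s₁ := G) (s₂ := B) (f := fun T : Finset X => q ^ T.card)
  have h2 : 0 ≤ ∑ T ∈ G ∩ B, q ^ T.card := Finset.sum_nonneg (fun _ _ => pow_nonneg hq _)
  linarith

theorem hits_resid {F : Finset (Finset X)} {W W' : Finset X} :
    Hits (resid F W) W' ↔ Hits F (W ∪ W') := by
  unfold Hits resid
  constructor
  · rintro ⟨T, hT, hTW⟩
    obtain ⟨S, hS, rfl⟩ := Finset.mem_image.1 hT
    refine ⟨S, hS, ?_⟩
    intro x hx
    by_cases hxW : x ∈ W
    · exact Finset.mem_union_left _ hxW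
    · exact Finset.mem_union_right _ (hTW (Finset.mem_sdiff.2 ⟨hx, hxW⟩))
  · rintro ⟨S, hS, hSW⟩
    refine ⟨S \ W, Finset.mem_image_of_mem _ hS, ?_⟩
    intro x hx
    have hx' := Finset.mem_sdiff.1 hx
    rcases Finset.mem_union.1 (hSW hx'.1) with h | h
    · exact absurd h hx'.2
    · exact h

theorem miss_nonneg {p : ℝ} (h0 : 0 ≤ p) (h1 : p ≤ 1) (F : Finset (Finset X)) :
    0 ≤ miss p F := by
  unfold miss
  refine Finset.sum_nonneg (fun W _ => mul_nonneg (wt_nonneg h0 h1 W) ?_)
  split_ifs <;> norm_num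

theorem miss_le_one {p : ℝ} (h0 : 0 ≤ p) (h1 : p ≤ 1) (F : Finset (Finset X)) :
    miss p F ≤ 1 := by
  unfold miss
  calc ∑ W : Finset X, wt p W * (if Hits F W then 0 else 1)
      ≤ ∑ W : Finset X, wt p W := by
        refine Finset.sum_le_sum (fun W _ => ?_)
        have := wt_nonneg h0 h1 W
        split_ifs <;> nlinarith
    _ = 1 := sum_wt p

theorem miss_anti {p : ℝ} (h0 : 0 ≤ p) (h1 : p ≤ 1) {F₁ F₂ : Finset (Finset X)}
    (h : ∀ W, Hits F₁ W → Hits F₂ W) : miss p F₂ ≤ miss p F₁ := by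
  unfold miss
  refine Finset.sum_le_sum (fun W _ => ?_)
  have hw := wt_nonneg h0 h1 W
  by_cases h1' : Hits F₁ W
  · rw [if_pos h1', if_pos (h W h1')]
  · rw [if_neg h1']
    split_ifs <;> nlinarith

theorem miss_zero (F : Finset (Finset X)) : miss 0 F = if ∅ ∈ F then 0 else 1 := by
  unfold miss
  rw [Finset.sum_eq_single (∅ : Finset X)]
  · have hH : Hits F ∅ ↔ ∅ ∈ F := by
      unfold Hits
      constructor
      · rintro ⟨S, hS, hsub⟩
        rwa [Finset.subset_empty.1 hsub] at hS
      · intro h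
        exact ⟨∅, h, Finset.Subset.refl _⟩
    have hw : wt (0 : ℝ) (∅ : Finset X) = 1 := by simp [wt]
    rw [hw, one_mul]
    by_cases h : (∅ : Finset X) ∈ F
    · rw [if_pos (hH.2 h), if_pos h]
    · rw [if_neg (fun h' => h (hH.1 h')), if_neg h]
  · intro W _ hW
    have hc : W.card ≠ 0 := by
      rwa [Ne, Finset.card_eq_zero]
    have hw : wt (0 : ℝ) W = 0 := by simp [wt, hc]
    rw [hw, zero_mul]
  · intro h
    exact absurd (Finset.mem_univ _) h

theorem miss_union (a b : ℝ) (F : Finset (Finset X)) :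
    miss (1 - (1 - a) * (1 - b)) F = ∑ W : Finset X, wt a W * miss b (resid F W) := by
  unfold miss
  rw [← wt_union a b (fun Z => if Hits F Z then 0 else 1)]
  refine Finset.sum_congr rfl (fun W _ => ?_)
  rw [Finset.mul_sum]
  refine Finset.sum_congr rfl (fun W' _ => ?_)
  have hiff : (if Hits (resid F W) W' then (0 : ℝ) else 1) = if Hits F (W ∪ W') then 0 else 1 := by
    by_cases h : Hits F (W ∪ W')
    · rw [if_pos h, if_pos (hits_resid.2 h)]
    · rw [if_neg h, if_neg (fun h' => h (hits_resid.1 h'))]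
  rw [hiff]
  ring

/-! ### Minimum fragments -/

/-- `U` is a minimum fragment (w.r.t. `W`) of some member of `F`. -/
def IsFrag (F : Finset (Finset X)) (W U : Finset X) : Prop :=
  ∃ S ∈ F, U ⊆ S ∧ ∀ S'' ∈ F, S'' ⊆ W ∪ S → U.card ≤ (S'' \ W).card

instance (F : Finset (Finset X)) (W U : Finset X) : Decidable (IsFrag F W U) := by
  unfold IsFrag; infer_instance

/-- The family of all minimum fragments w.r.t. `W`. -/
def frags (F : Finset (Finset X)) (W : Finset X) : Finset (Finset X) :=
  (resid F W).filter (fun U => IsFrag F W U)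

theorem mem_frags {F : Finset (Finset X)} {W U : Finset X} :
    U ∈ frags F W ↔ U ∈ resid F W ∧ IsFrag F W U := by
  unfold frags
  rw [Finset.mem_filter]

theorem exists_frag {F : Finset (Finset X)} (W : Finset X) {S : Finset X} (hS : S ∈ F) :
    ∃ U ∈ frags F W, U ⊆ S := by
  classical
  have hne : (F.filter (fun S' => S' ⊆ W ∪ S)).Nonempty :=
    ⟨S, Finset.mem_filter.2 ⟨hS, Finset.subset_union_right⟩⟩
  obtain ⟨S', hS', hmin⟩ := Finset.exists_min_image _ (fun S' : Finset X => (S' \ W).card) hne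
  have hS'F := (Finset.mem_filter.1 hS').1
  have hS'sub := (Finset.mem_filter.1 hS').2
  have hsub : S' \ W ⊆ S := by
    intro x hx
    have hx' := Finset.mem_sdiff.1 hx
    rcases Finset.mem_union.1 (hS'sub hx'.1) with h | h
    · exact absurd h hx'.2
    · exact h
  refine ⟨S' \ W, ?_, hsub⟩
  rw [mem_frags]
  refine ⟨Finset.mem_image_of_mem _ hS'F, S, hS, hsub, ?_⟩
  intro S'' hS'' hsub''
  exact hmin S'' (Finset.mem_filter.2 ⟨hS'', hsub''⟩)

theorem frag_disjoint {F : Finset (Finset X)} {W U : Finset X} (hU : U ∈ frags F W) :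
    Disjoint W U := by
  obtain ⟨S', _, rfl⟩ := Finset.mem_image.1 (mem_frags.1 hU).1
  exact Finset.disjoint_sdiff

theorem frag_exists_member {F : Finset (Finset X)} {W U : Finset X} (hU : U ∈ frags F W) :
    ∃ S' ∈ F, S' ⊆ W ∪ U := by
  obtain ⟨S', hS', rfl⟩ := Finset.mem_image.1 (mem_frags.1 hU).1
  refine ⟨S', hS', ?_⟩
  intro x hx
  by_cases hxW : x ∈ W
  · exact Finset.mem_union_left _ hxW
  · exact Finset.mem_union_right _ (Finset.mem_sdiff.2 ⟨hx, hxW⟩)

/-- Key fact: a minimum fragment `U` w.r.t. `W` is contained in EVERY member of `F` that lies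
inside `W ∪ U`. -/
theorem frag_subset_of_subset {F : Finset (Finset X)} {W U S₀ : Finset X}
    (hU : U ∈ frags F W) (hS₀ : S₀ ∈ F) (hsub : S₀ ⊆ W ∪ U) : U ⊆ S₀ := by
  obtain ⟨S, hS, hUS, hmin⟩ := (mem_frags.1 hU).2
  have h1 : S₀ ⊆ W ∪ S := hsub.trans (Finset.union_subset_union_right hUS)
  have h2 := hmin S₀ hS₀ h1
  have h3 : S₀ \ W ⊆ U := by
    intro x hx
    have hx' := Finset.mem_sdiff.1 hx
    rcases Finset.mem_union.1 (hsub hx'.1) with h | h
    · exact absurd h hx'.2
    · exact h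
  have h4 : S₀ \ W = U := Finset.eq_of_subset_of_card_le h3 h2
  rw [← h4]
  exact Finset.sdiff_subset

/-- Good fragments: at most half of the size bound. -/
def good (F : Finset (Finset X)) (ℓ : ℕ) (W : Finset X) : Finset (Finset X) :=
  (frags F W).filter (fun U => 2 * U.card ≤ ℓ)

/-- Bad fragments: more than half of the size bound. -/
def bad (F : Finset (Finset X)) (ℓ : ℕ) (W : Finset X) : Finset (Finset X) :=
  (frags F W).filter (fun U => ℓ < 2 * U.card)

theorem good_card {F : Finset (Finset X)} {ℓ : ℕ} {W U : Finset X} (hU : U ∈ good F ℓ W) :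
    U.card ≤ ℓ / 2 := by
  have := (Finset.mem_filter.1 hU).2
  omega

theorem hits_good {F : Finset (Finset X)} {ℓ : ℕ} {W W' : Finset X}
    (h : Hits (good F ℓ W) W') : Hits (resid F W) W' := by
  obtain ⟨U, hU, hsub⟩ := h
  exact ⟨U, (mem_frags.1 (Finset.mem_filter.1 hU).1).1, hsub⟩

theorem covers_union {F G : Finset (Finset X)} {ℓ : ℕ} {W : Finset X}
    (hG : Covers G (good F ℓ W)) : Covers (G ∪ bad F ℓ W) F := by
  intro S hS
  obtain ⟨U, hU, hUS⟩ := exists_frag W hS
  by_cases hc : 2 * U.card ≤ ℓ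
  · obtain ⟨T, hT, hTU⟩ := hG U (Finset.mem_filter.2 ⟨hU, hc⟩)
    exact ⟨T, Finset.mem_union_left _ hT, hTU.trans hUS⟩
  · exact ⟨U, Finset.mem_union_right _ (Finset.mem_filter.2 ⟨hU, not_le.1 hc⟩), hUS⟩

end Crest.Agent.Helper68.PP
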