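import Crest.Agent.Helper68.PP.Round

/-!
# Induction over the rounds (helper68)
-/

set_option autoImplicit false

namespace Crest.Agent.Helper68.PP

open Finset

variable {X : Type*} [Fintype X] [DecidableEq X]

theorem eps_aux (h : ℕ) :
    ∃ x : ℝ, 0 < x ∧ x ≤ 1 ∧ x = (1 / 2 : ℝ) ^ h ∧ (2 : ℝ) ^ (2 * h) * x ^ 2 = 1 ∧
      (64 : ℝ) ^ (h + 1) * x ^ 6 = 64 ∧ (1 / 2 : ℝ) ^ (2 * h) = x ^ 2 := by
  refine ⟨(1 / 2 : ℝ) ^ h, by positivity, pow_le_one₀ (by norm_num) (by norm_num), rfl, ?_, ?_, ?_⟩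
  · rw [pow_mul', ← mul_pow, ← mul_pow]
    norm_num
  · rw [pow_succ, ← pow_mul, mul_comm h 6, pow_mul, mul_right_comm, ← mul_pow]
    norm_num
  · rw [pow_mul']

theorem eps_step (ℓ : ℕ) :
    ((2 : ℝ) ^ ℓ - 1) / 64 ^ (ℓ / 2 + 1) + (1 / 4) * (1 - (1 / 2) ^ (ℓ / 2))
      ≤ (1 / 4) * (1 - (1 / 2) ^ ℓ) := by
  obtain ⟨h, rfl | rfl⟩ : ∃ h, ℓ = 2 * h ∨ ℓ = 2 * h + 1 := ⟨ℓ / 2, by omega⟩
  · obtain ⟨x, hx0, hx1, hx, e1, e2, e3⟩ := eps_aux h
    have hdiv : 2 * h / 2 = h := by omega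
    rw [hdiv, e3, ← hx]
    have hB : (0 : ℝ) < 64 ^ (h + 1) := by positivity
    have hfrac : ((2 : ℝ) ^ (2 * h) - 1) / 64 ^ (h + 1) = (x ^ 4 - x ^ 6) / 64 := by
      rw [div_eq_div_iff hB.ne' (by norm_num)]
      linear_combination (x ^ 4 * (64 : ℝ) ^ (h + 1)) * e1 + (1 - (2 : ℝ) ^ (2 * h)) * e2
    rw [hfrac]
    have h3 : x ^ 3 ≤ 1 := pow_le_one₀ hx0.le hx1
    have key : 0 ≤ x * (1 - x) * (16 - x ^ 3 * (1 + x)) := by
      have : 0 ≤ 16 - x ^ 3 * (1 + x) := by nlinarith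
      exact mul_nonneg (mul_nonneg hx0.le (by linarith)) this
    nlinarith [key]
  · obtain ⟨x, hx0, hx1, hx, e1, e2, e3⟩ := eps_aux h
    have hdiv : (2 * h + 1) / 2 = h := by omega
    have e4 : (1 / 2 : ℝ) ^ (2 * h + 1) = x ^ 2 / 2 := by
      rw [pow_succ, e3]; ring
    have e5 : (2 : ℝ) ^ (2 * h + 1) = 2 * (2 : ℝ) ^ (2 * h) := by
      rw [pow_succ]; ring
    rw [hdiv, e4, e5, ← hx]
    have hB : (0 : ℝ) < 64 ^ (h + 1) := by positivity
    have hfrac : (2 * (2 : ℝ) ^ (2 * h) - 1) / 64 ^ (h + 1) = (2 * x ^ 4 - x ^ 6) / 64 := by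
      rw [div_eq_div_iff hB.ne' (by norm_num)]
      linear_combination (2 * x ^ 4 * (64 : ℝ) ^ (h + 1)) * e1 + (1 - 2 * (2 : ℝ) ^ (2 * h)) * e2
    rw [hfrac]
    have h3 : x ^ 3 ≤ 1 := pow_le_one₀ hx0.le hx1
    have key : 0 ≤ x * (8 * (2 - x) - x ^ 3 * (2 - x ^ 2)) := by
      have h6 : 0 ≤ 2 - x ^ 2 := by nlinarith
      have h7 : x ^ 3 * (2 - x ^ 2) ≤ 1 * (2 - x ^ 2) := mul_le_mul_of_nonneg_right h3 h6
      have : 0 ≤ 8 * (2 - x) - x ^ 3 * (2 - x ^ 2) := by nlinarith [sq_nonneg x]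
      exact mul_nonneg hx0.le this
    nlinarith [key]

/-- **Main induction.**  If every cover of the `ℓ`-bounded family `F` costs at least `c` at
density `q`, then after `k` rounds of density `64 q` (with `ℓ < 2 ^ k`) the probability of
missing `F` times `c` is at most `1/4`. -/
theorem miss_bound {q : ℝ} (hq : 0 ≤ q) (hq1 : 64 * q ≤ 1) :
    ∀ (k ℓ : ℕ) (F : Finset (Finset X)), ℓ < 2 ^ k → (∀ S ∈ F, S.card ≤ ℓ) →
      ∀ c : ℝ, (∀ G : Finset (Finset X), Covers G F → c ≤ cost q G) →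
        c * miss (1 - (1 - 64 * q) ^ k) F ≤ (1 / 4) * (1 - (1 / 2) ^ ℓ) := by
  have hr0 : 0 ≤ 64 * q := by positivity
  intro k
  induction k with
  | zero =>
    intro ℓ F hℓ hF c hc
    have hℓ0 : ℓ = 0 := by simpa using hℓ
    subst hℓ0
    rw [pow_zero, sub_self, miss_zero, pow_zero, sub_self, mul_zero]
    by_cases h0 : (∅ : Finset X) ∈ F
    · rw [if_pos h0, mul_zero]
    · rw [if_neg h0, mul_one]
      have hcov : Covers (∅ : Finset (Finset X)) F := by
        intro S hS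
        have hS0 : S = ∅ := Finset.card_eq_zero.1 (Nat.le_zero.1 (hF S hS))
        rw [hS0] at hS
        exact absurd hS h0
      have := hc ∅ hcov
      simpa [cost] using this
  | succ k ih =>
    intro ℓ F hℓ hF c hc
    have hb0 : (0 : ℝ) ≤ (1 / 4) * (1 - (1 / 2) ^ ℓ) := by
      have : ((1 : ℝ) / 2) ^ ℓ ≤ 1 := pow_le_one₀ (by norm_num) (by norm_num)
      nlinarith
    have h1r0 : 0 ≤ 1 - 64 * q := by linarith
    have h1r1 : 1 - 64 * q ≤ 1 := by linarith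
    have hρ0 : 0 ≤ 1 - (1 - 64 * q) ^ k := by
      have := pow_le_one₀ (n := k) h1r0 h1r1
      linarith
    have hρ1 : 1 - (1 - 64 * q) ^ k ≤ 1 := by
      have := pow_nonneg h1r0 k
      linarith
    have hsucc : 1 - (1 - 64 * q) ^ (k + 1)
        = 1 - (1 - 64 * q) * (1 - (1 - (1 - 64 * q) ^ k)) := by
      rw [pow_succ]; ring
    have hρ0' : 0 ≤ 1 - (1 - 64 * q) ^ (k + 1) := by
      have := pow_le_one₀ (n := k + 1) h1r0 h1r1
      linarith
    have hρ1' : 1 - (1 - 64 * q) ^ (k + 1) ≤ 1 := by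
      have := pow_nonneg h1r0 (k + 1)
      linarith
    rcases le_or_gt c 0 with hc0 | hc0
    · have := miss_nonneg hρ0' hρ1' F
      nlinarith
    · rw [hsucc, miss_union, Finset.mul_sum]
      have hℓ2 : ℓ / 2 < 2 ^ k := by
        rw [pow_succ] at hℓ
        omega
      have hterm : ∀ W : Finset X,
          c * (wt (64 * q) W * miss (1 - (1 - 64 * q) ^ k) (resid F W))
            ≤ wt (64 * q) W * cost q (bad F ℓ W)
              + wt (64 * q) W * ((1 / 4) * (1 - (1 / 2) ^ (ℓ / 2))) := by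
        intro W
        have hw := wt_nonneg hr0 hq1 W
        have hm1 : miss (1 - (1 - 64 * q) ^ k) (resid F W)
            ≤ miss (1 - (1 - 64 * q) ^ k) (good F ℓ W) :=
          miss_anti hρ0 hρ1 (fun W' h => hits_good h)
        have hcG : ∀ G : Finset (Finset X), Covers G (good F ℓ W) →
            c - cost q (bad F ℓ W) ≤ cost q G := by
          intro G hG
          have h1 := hc (G ∪ bad F ℓ W) (covers_union hG)
          have h2 := cost_union_le hq G (bad F ℓ W)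
          linarith
        have hih := ih (ℓ / 2) (good F ℓ W) hℓ2 (fun U hU => good_card hU)
          (c - cost q (bad F ℓ W)) hcG
        have hmg0 := miss_nonneg hρ0 hρ1 (good F ℓ W)
        have hmg1 := miss_le_one hρ0 hρ1 (good F ℓ W)
        have hcb := cost_nonneg hq (bad F ℓ W)
        have hmain : c * miss (1 - (1 - 64 * q) ^ k) (resid F W)
            ≤ cost q (bad F ℓ W) + (1 / 4) * (1 - (1 / 2) ^ (ℓ / 2)) := by
          have e1 : c * miss (1 - (1 - 64 * q) ^ k) (resid F W)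
              ≤ c * miss (1 - (1 - 64 * q) ^ k) (good F ℓ W) :=
            mul_le_mul_of_nonneg_left hm1 hc0.le
          have e2 : cost q (bad F ℓ W) * miss (1 - (1 - 64 * q) ^ k) (good F ℓ W)
              ≤ cost q (bad F ℓ W) := by
            nlinarith
          nlinarith
        calc c * (wt (64 * q) W * miss (1 - (1 - 64 * q) ^ k) (resid F W))
            = wt (64 * q) W * (c * miss (1 - (1 - 64 * q) ^ k) (resid F W)) := by ring
          _ ≤ wt (64 * q) W * (cost q (bad F ℓ W) + (1 / 4) * (1 - (1 / 2) ^ (ℓ / 2))) :=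
              mul_le_mul_of_nonneg_left hmain hw
          _ = _ := by ring
      calc ∑ W : Finset X, c * (wt (64 * q) W * miss (1 - (1 - 64 * q) ^ k) (resid F W))
          ≤ ∑ W : Finset X, (wt (64 * q) W * cost q (bad F ℓ W)
              + wt (64 * q) W * ((1 / 4) * (1 - (1 / 2) ^ (ℓ / 2)))) :=
            Finset.sum_le_sum (fun W _ => hterm W)
        _ = ∑ W : Finset X, wt (64 * q) W * cost q (bad F ℓ W)
              + (1 / 4) * (1 - (1 / 2) ^ (ℓ / 2)) := by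
            rw [Finset.sum_add_distrib, ← Finset.sum_mul, sum_wt, one_mul]
        _ ≤ ((2 : ℝ) ^ ℓ - 1) / 64 ^ (ℓ / 2 + 1) + (1 / 4) * (1 - (1 / 2) ^ (ℓ / 2)) := by
            have := round_bound hq hq1 F ℓ hF
            linarith
        _ ≤ (1 / 4) * (1 - (1 / 2) ^ ℓ) := eps_step ℓ

end Crest.Agent.Helper68.PP
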