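import Crest.Agent.Helper68.PP.Induct

/-!
# Park–Pham in Bernoulli form (helper68; insurance package for S0076, row 55)

Interface (all statements about `Crest.FinProb.bernoulliProb`):

* `bernoulliProb_hits` : the probability of containing a member of `F` is `1 - miss p F`;
* `bernoulliProb_mono_hits`, `bernoulliProb_mono_upSet` : monotonicity in the bias;
* `pp_notSmall` : an `ℓ`-bounded family that is not `q`-small is hit with probability `≥ 1/2`
  at bias `min 1 (64 q (⌊log₂ ℓ⌋ + 1))`;
* `pp_spread` : the same for an indexed family that is `q`-spread.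
-/

set_option autoImplicit false

namespace Crest.Agent.Helper68.PP

open Finset

variable {X : Type*} [Fintype X] [DecidableEq X]

/-- The event "the outcome contains a member of `F`". -/
def hitEvent (F : Finset (Finset X)) : Set (X → Bool) :=
  {ω | ∃ S ∈ F, ∀ x ∈ S, ω x = true}

theorem mem_hitEvent_iff (F : Finset (Finset X)) (ω : X → Bool) :
    ω ∈ hitEvent F ↔ Hits F (trueSet ω) := by
  unfold hitEvent Hits
  constructor
  · rintro ⟨S, hS, h⟩
    exact ⟨S, hS, fun x hx => mem_trueSet.2 (h x hx)⟩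
  · rintro ⟨S, hS, h⟩
    exact ⟨S, hS, fun x hx => mem_trueSet.1 (h hx)⟩

/-- Bridge: the Bernoulli probability of hitting `F` is `1 - miss p F`. -/
theorem bernoulliProb_hits (p : ℝ) (F : Finset (Finset X)) :
    Crest.FinProb.bernoulliProb p (hitEvent F) = 1 - miss p F := by
  unfold Crest.FinProb.bernoulliProb
  rw [Finset.sum_filter]
  have h1 : ∀ ω : X → Bool,
      (@ite ℝ (ω ∈ hitEvent F) (Classical.decPred (· ∈ hitEvent F) ω)
        (Crest.FinProb.bernoulliWeight p ω) 0)
      = wt p (trueSet ω) - wt p (trueSet ω) * (if Hits F (trueSet ω) then 0 else 1) := by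
    intro ω
    by_cases h : ω ∈ hitEvent F
    · rw [if_pos h, if_pos ((mem_hitEvent_iff F ω).1 h), bernoulliWeight_eq_wt]
      ring
    · rw [if_neg h, if_neg (fun h' => h ((mem_hitEvent_iff F ω).2 h'))]
      ring
  rw [Finset.sum_congr rfl (fun ω _ => h1 ω)]
  rw [sum_outcomes (fun W => wt p W - wt p W * (if Hits F W then 0 else 1))]
  rw [Finset.sum_sub_distrib, sum_wt]
  rfl

theorem miss_eq_zero_of_empty_mem (p : ℝ) {F : Finset (Finset X)} (h : (∅ : Finset X) ∈ F) :
    miss p F = 0 := by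
  unfold miss
  refine Finset.sum_eq_zero (fun W _ => ?_)
  rw [if_pos ⟨∅, h, Finset.empty_subset _⟩, mul_zero]

/-- Monotonicity of the miss probability in the bias. -/
theorem miss_mono {p p' : ℝ} (h0 : 0 ≤ p) (hpp : p ≤ p') (h1 : p' ≤ 1) (F : Finset (Finset X)) :
    miss p' F ≤ miss p F := by
  rcases eq_or_lt_of_le (hpp.trans h1) with hp1 | hp1
  · have : p' = p := by linarith
    rw [this]
  · have h1p : 0 < 1 - p := by linarith
    set b : ℝ := (p' - p) / (1 - p) with hb
    have hb0 : 0 ≤ b := div_nonneg (by linarith) h1p.le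
    have hb1 : b ≤ 1 := by
      rw [hb, div_le_one h1p]; linarith
    have hp' : p' = 1 - (1 - p) * (1 - b) := by
      rw [hb]; field_simp; ring
    rw [hp', miss_union]
    unfold miss
    refine Finset.sum_le_sum (fun W _ => ?_)
    have hw := wt_nonneg h0 (hpp.trans h1) W
    refine mul_le_mul_of_nonneg_left ?_ hw
    by_cases hH : Hits F W
    · rw [if_pos hH]
      obtain ⟨S, hS, hSW⟩ := hH
      have hmem : (∅ : Finset X) ∈ resid F W := by
        unfold resid
        rw [Finset.mem_image]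
        exact ⟨S, hS, Finset.sdiff_eq_empty_iff_subset.2 hSW⟩
      have := miss_eq_zero_of_empty_mem b hmem
      unfold miss at this
      rw [this]
    · rw [if_neg hH]
      exact miss_le_one hb0 hb1 _

/-- Monotonicity in the bias of the probability of hitting a family. -/
theorem bernoulliProb_mono_hits (F : Finset (Finset X)) {p p' : ℝ} (h0 : 0 ≤ p) (hpp : p ≤ p')
    (h1 : p' ≤ 1) :
    Crest.FinProb.bernoulliProb p (hitEvent F) ≤ Crest.FinProb.bernoulliProb p' (hitEvent F) := by
  rw [bernoulliProb_hits, bernoulliProb_hits]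
  have := miss_mono h0 hpp h1 F
  linarith

open Classical in
/-- Every up-set of outcomes is a hit event. -/
theorem upSet_eq_hitEvent (E : Set (X → Bool))
    (hE : ∀ ω ω' : X → Bool, ω ∈ E → (∀ x, ω x = true → ω' x = true) → ω' ∈ E) :
    E = hitEvent ((univ : Finset (X → Bool)).filter (· ∈ E) |>.image trueSet) := by
  ext ω
  unfold hitEvent
  constructor
  · intro h
    refine ⟨trueSet ω, Finset.mem_image.2 ⟨ω, Finset.mem_filter.2 ⟨Finset.mem_univ _, h⟩, rfl⟩, ?_⟩
    intro x hx
    exact mem_trueSet.1 hx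
  · rintro ⟨S, hS, h⟩
    obtain ⟨ω₀, hω₀, rfl⟩ := Finset.mem_image.1 hS
    exact hE ω₀ ω (Finset.mem_filter.1 hω₀).2 (fun x hx => h x (mem_trueSet.2 hx))

/-- Monotonicity of `bernoulliProb` in the bias for up-sets of outcomes. -/
theorem bernoulliProb_mono_upSet (E : Set (X → Bool))
    (hE : ∀ ω ω' : X → Bool, ω ∈ E → (∀ x, ω x = true → ω' x = true) → ω' ∈ E)
    {p p' : ℝ} (h0 : 0 ≤ p) (hpp : p ≤ p') (h1 : p' ≤ 1) :
    Crest.FinProb.bernoulliProb p E ≤ Crest.FinProb.bernoulliProb p' E := by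
  rw [upSet_eq_hitEvent E hE]
  exact bernoulliProb_mono_hits _ h0 hpp h1

theorem miss_one {F : Finset (Finset X)} (hF : F.Nonempty) : miss 1 F = 0 := by
  unfold miss
  refine Finset.sum_eq_zero (fun W _ => ?_)
  by_cases hW : W = univ
  · obtain ⟨S, hS⟩ := hF
    rw [if_pos ⟨S, hS, by rw [hW]; exact Finset.subset_univ _⟩, mul_zero]
  · have hlt : W.card < Fintype.card X := by
      rw [← Finset.card_univ]
      exact Finset.card_lt_card (Finset.ssubset_univ_iff.2 hW)
    have hw : wt (1 : ℝ) W = 0 := by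
      unfold wt
      rw [sub_self, zero_pow (by omega), mul_zero]
    rw [hw, zero_mul]

/-- **Park–Pham, Bernoulli form (not-small version).**  If the `ℓ`-bounded family `F` has no
cover of cost `≤ 1/2` at density `q`, then a Bernoulli subset of bias
`min 1 (64 q (⌊log₂ ℓ⌋ + 1))` contains a member of `F` with probability at least `1/2`. -/
theorem pp_notSmall (F : Finset (Finset X)) (ℓ : ℕ) (hF : ∀ S ∈ F, S.card ≤ ℓ) (q : ℝ)
    (hq : 0 ≤ q)
    (hns : ∀ G : Finset (Finset X), (∀ S ∈ F, ∃ T ∈ G, T ⊆ S) → 1 / 2 < ∑ T ∈ G, q ^ T.card) :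
    1 / 2 ≤ Crest.FinProb.bernoulliProb (min 1 (64 * q * ((Nat.log 2 ℓ : ℝ) + 1)))
      {ω : X → Bool | ∃ S ∈ F, ∀ x ∈ S, ω x = true} := by
  change 1 / 2 ≤ Crest.FinProb.bernoulliProb _ (hitEvent F)
  rw [bernoulliProb_hits]
  have hne : F.Nonempty := by
    by_contra hempty
    rw [Finset.not_nonempty_iff_eq_empty] at hempty
    have := hns ∅ (by intro S hS; rw [hempty] at hS; exact absurd hS (Finset.notMem_empty _))
    simp at this
    linarith
  set k : ℕ := Nat.log 2 ℓ + 1 with hk
  have hkr : ((Nat.log 2 ℓ : ℝ) + 1) = (k : ℝ) := by rw [hk]; push_cast; ring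
  rw [hkr]
  have hk1 : (1 : ℝ) ≤ (k : ℝ) := by rw [hk]; push_cast; linarith [Nat.cast_nonneg (α := ℝ) (Nat.log 2 ℓ)]
  rcases le_or_gt 1 (64 * q * (k : ℝ)) with hbig | hsmall
  · rw [min_eq_left hbig, miss_one hne]
    norm_num
  · rw [min_eq_right hsmall.le]
    have hr0 : 0 ≤ 64 * q := by positivity
    have hr1 : 64 * q ≤ 1 := by nlinarith
    have hℓ : ℓ < 2 ^ k := Nat.lt_pow_succ_log_self (by norm_num) ℓ
    have hmb := miss_bound hq hr1 k ℓ F hℓ hF (1 / 2) (fun G hG => (hns G hG).le)
    have hpow : ((1 : ℝ) / 2) ^ ℓ ≥ 0 := by positivity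
    have hmiss : miss (1 - (1 - 64 * q) ^ k) F ≤ 1 / 2 := by nlinarith
    have hbern : 1 - (1 - 64 * q) ^ k ≤ 64 * q * (k : ℝ) := by
      have := one_add_mul_le_pow (a := -(64 * q)) (by linarith) k
      have e : (1 : ℝ) + -(64 * q) = 1 - 64 * q := by ring
      rw [e] at this
      nlinarith
    have hρ0 : 0 ≤ 1 - (1 - 64 * q) ^ k := by
      have := pow_le_one₀ (n := k) (by linarith : (0 : ℝ) ≤ 1 - 64 * q) (by linarith)
      linarith
    have := miss_mono hρ0 hbern hsmall.le F
    linarith

/-- **Park–Pham, Bernoulli form (spread version, indexed family).**  If the sets `S i`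
(`i : I`, at most `ℓ` elements each) are `q`-spread, i.e. every nonempty `T` is contained in at
most a `q ^ |T|` fraction of them, then a Bernoulli subset of bias
`min 1 (64 q (⌊log₂ ℓ⌋ + 1))` contains some `S i` with probability at least `1/2`. -/
theorem pp_spread {I : Type*} [Fintype I] [Nonempty I] (S : I → Finset X) (ℓ : ℕ)
    (hS : ∀ i, (S i).card ≤ ℓ) (q : ℝ) (hq : 0 ≤ q)
    (hsp : ∀ T : Finset X, T.Nonempty →
      ((Finset.univ.filter (fun i => T ⊆ S i)).card : ℝ) ≤ q ^ T.card * (Fintype.card I : ℝ)) :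
    1 / 2 ≤ Crest.FinProb.bernoulliProb (min 1 (64 * q * ((Nat.log 2 ℓ : ℝ) + 1)))
      {ω : X → Bool | ∃ i, ∀ x ∈ S i, ω x = true} := by
  classical
  have hset : {ω : X → Bool | ∃ i, ∀ x ∈ S i, ω x = true}
      = {ω : X → Bool | ∃ T ∈ (Finset.univ.image S), ∀ x ∈ T, ω x = true} := by
    ext ω
    simp
  rw [hset]
  refine pp_notSmall (Finset.univ.image S) ℓ ?_ q hq ?_
  · intro T hT
    obtain ⟨i, -, rfl⟩ := Finset.mem_image.1 hT
    exact hS i
  · intro G hG
    have hI : (0 : ℝ) < (Fintype.card I : ℝ) := by exact_mod_cast Fintype.card_pos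
    by_cases h0 : (∅ : Finset X) ∈ G
    · have : q ^ (∅ : Finset X).card ≤ ∑ T ∈ G, q ^ T.card :=
        Finset.single_le_sum (f := fun T : Finset X => q ^ T.card)
          (fun T _ => pow_nonneg hq _) h0
      simp at this
      linarith
    · -- every index is covered by some nonempty `T ∈ G`
      have hcount : (Fintype.card I : ℝ)
          ≤ ∑ T ∈ G, ((Finset.univ.filter (fun i => T ⊆ S i)).card : ℝ) := by
        have h1 : (Finset.univ : Finset I) ⊆ G.biUnion (fun T => Finset.univ.filter (fun i => T ⊆ S i)) := by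
          intro i _
          obtain ⟨T, hT, hTS⟩ := hG (S i) (Finset.mem_image_of_mem _ (Finset.mem_univ i))
          exact Finset.mem_biUnion.2 ⟨T, hT, Finset.mem_filter.2 ⟨Finset.mem_univ _, hTS⟩⟩
        have h2 := (Finset.card_le_card h1).trans Finset.card_biUnion_le
        rw [Finset.card_univ] at h2
        exact_mod_cast h2
      have hle : ∑ T ∈ G, ((Finset.univ.filter (fun i => T ⊆ S i)).card : ℝ)
          ≤ ∑ T ∈ G, q ^ T.card * (Fintype.card I : ℝ) := by
        refine Finset.sum_le_sum (fun T hT => hsp T ?_)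
        rw [Finset.nonempty_iff_ne_empty]
        rintro rfl
        exact h0 hT
      rw [← Finset.sum_mul] at hle
      have : (Fintype.card I : ℝ) ≤ (∑ T ∈ G, q ^ T.card) * (Fintype.card I : ℝ) :=
        hcount.trans hle
      have h1 : 1 ≤ ∑ T ∈ G, q ^ T.card := by
        by_contra hlt
        have hlt' := not_le.1 hlt
        nlinarith
      linarith

end Crest.Agent.Helper68.PP
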