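import Crest.Agent.Helper68.PP.Core

/-!
# The Park–Pham round lemma and the induction over rounds (helper68)
-/

set_option autoImplicit false

namespace Crest.Agent.Helper68.PP

open Finset

variable {X : Type*} [Fintype X] [DecidableEq X]

/-- The pairs `(W, U)` with `U` a bad fragment w.r.t. `W`. -/
def badPairs (F : Finset (Finset X)) (ℓ : ℕ) : Finset (Finset X × Finset X) :=
  (univ : Finset (Finset X × Finset X)).filter (fun p => p.2 ∈ bad F ℓ p.1)

theorem sum_badPairs (F : Finset (Finset X)) (ℓ : ℕ) (h : Finset X → Finset X → ℝ) :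
    ∑ W : Finset X, ∑ U ∈ bad F ℓ W, h W U = ∑ p ∈ badPairs F ℓ, h p.1 p.2 := by
  unfold badPairs
  rw [Finset.sum_filter, Fintype.sum_prod_type]
  refine Finset.sum_congr rfl (fun W _ => ?_)
  rw [← Finset.sum_filter]
  refine Finset.sum_congr ?_ (fun _ _ => rfl)
  ext U
  simp

/-- For fixed `Z`, at most `2 ^ ℓ - 1` bad pairs `(W, U)` have `W ∪ U = Z`. -/
theorem fiber_card_le (F : Finset (Finset X)) (ℓ : ℕ) (hF : ∀ S ∈ F, S.card ≤ ℓ)
    (Z : Finset X) :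
    (((badPairs F ℓ).filter (fun p => p.1 ∪ p.2 = Z)).card : ℝ) ≤ 2 ^ ℓ - 1 := by
  set A := (badPairs F ℓ).filter (fun p => p.1 ∪ p.2 = Z) with hA
  have hmem : ∀ p ∈ A, p.2 ∈ frags F p.1 ∧ ℓ < 2 * p.2.card ∧ p.1 ∪ p.2 = Z := by
    intro p hp
    have h1 := Finset.mem_filter.1 hp
    have h2 := (Finset.mem_filter.1 h1.1).2
    have h3 := Finset.mem_filter.1 h2
    exact ⟨h3.1, h3.2, h1.2⟩
  rcases A.eq_empty_or_nonempty with hE | ⟨p₀, hp₀⟩
  · rw [hE, Finset.card_empty, Nat.cast_zero]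
    have : (1 : ℝ) ≤ 2 ^ ℓ := one_le_pow₀ (by norm_num)
    linarith
  · obtain ⟨hfr₀, -, hZ₀⟩ := hmem p₀ hp₀
    obtain ⟨S₀, hS₀, hsub₀⟩ := frag_exists_member hfr₀
    rw [hZ₀] at hsub₀
    have hcard : A.card ≤ ((S₀.powerset).erase ∅).card := by
      refine Finset.card_le_card_of_injOn (fun p => p.2) ?_ ?_
      · intro p hp
        obtain ⟨hfr, hlt, hZ⟩ := hmem p (Finset.mem_coe.1 hp)
        have hsub : S₀ ⊆ p.1 ∪ p.2 := by rw [hZ]; exact hsub₀
        have hU := frag_subset_of_subset hfr hS₀ hsub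
        rw [Finset.mem_coe, Finset.mem_erase, Finset.mem_powerset]
        refine ⟨?_, hU⟩
        intro h0
        have h0' : p.2 = ∅ := h0
        rw [h0', Finset.card_empty] at hlt
        omega
      · intro p hp p' hp' heq
        obtain ⟨hfr, -, hZ⟩ := hmem p (Finset.mem_coe.1 hp)
        obtain ⟨hfr', -, hZ'⟩ := hmem p' (Finset.mem_coe.1 hp')
        have hd := frag_disjoint hfr
        have hd' := frag_disjoint hfr'
        have h1 : p.1 = Z \ p.2 := by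
          rw [← hZ, Finset.union_sdiff_cancel_right hd]
        have h1' : p'.1 = Z \ p'.2 := by
          rw [← hZ', Finset.union_sdiff_cancel_right hd']
        have heq' : p.2 = p'.2 := heq
        refine Prod.ext ?_ heq'
        rw [h1, h1', heq']
    have hpow : ((S₀.powerset).erase ∅).card + 1 = 2 ^ S₀.card := by
      rw [Finset.card_erase_of_mem (Finset.empty_mem_powerset _), Finset.card_powerset]
      have : 1 ≤ 2 ^ S₀.card := Nat.one_le_two_pow
      omega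
    have hle : (2 : ℝ) ^ S₀.card ≤ 2 ^ ℓ := pow_le_pow_right₀ (by norm_num) (hF S₀ hS₀)
    have h2 : (A.card : ℝ) + 1 ≤ 2 ^ S₀.card := by
      have : A.card + 1 ≤ 2 ^ S₀.card := by omega
      exact_mod_cast this
    linarith

/-- Step C of the round lemma. -/
theorem sum_wt_badPairs_le {r : ℝ} (h0 : 0 ≤ r) (h1 : r ≤ 1) (F : Finset (Finset X)) (ℓ : ℕ)
    (hF : ∀ S ∈ F, S.card ≤ ℓ) :
    ∑ p ∈ badPairs F ℓ, wt r (p.1 ∪ p.2) ≤ 2 ^ ℓ - 1 := by
  rw [← Finset.sum_fiberwise (badPairs F ℓ) (fun p => p.1 ∪ p.2) (fun p => wt r (p.1 ∪ p.2))]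
  calc ∑ Z : Finset X, ∑ p ∈ badPairs F ℓ with p.1 ∪ p.2 = Z, wt r (p.1 ∪ p.2)
      = ∑ Z : Finset X, (((badPairs F ℓ).filter (fun p => p.1 ∪ p.2 = Z)).card : ℝ) * wt r Z := by
        refine Finset.sum_congr rfl (fun Z _ => ?_)
        rw [Finset.sum_congr rfl (fun p hp => by rw [(Finset.mem_filter.1 hp).2]),
          Finset.sum_const, nsmul_eq_mul]
    _ ≤ ∑ Z : Finset X, (2 ^ ℓ - 1) * wt r Z := by
        refine Finset.sum_le_sum (fun Z _ => ?_)
        exact mul_le_mul_of_nonneg_right (fiber_card_le F ℓ hF Z) (wt_nonneg h0 h1 Z)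
    _ = 2 ^ ℓ - 1 := by
        rw [← Finset.mul_sum, sum_wt, mul_one]

/-- **Round lemma.**  The expected cost of the bad fragments is tiny. -/
theorem round_bound {q : ℝ} (hq : 0 ≤ q) (hq1 : 64 * q ≤ 1) (F : Finset (Finset X)) (ℓ : ℕ)
    (hF : ∀ S ∈ F, S.card ≤ ℓ) :
    ∑ W : Finset X, wt (64 * q) W * cost q (bad F ℓ W) ≤ ((2 : ℝ) ^ ℓ - 1) / 64 ^ (ℓ / 2 + 1) := by
  have hr0 : 0 ≤ 64 * q := by positivity
  have hstep : ∀ W : Finset X, ∀ U ∈ bad F ℓ W,
      wt (64 * q) W * q ^ U.card ≤ wt (64 * q) (W ∪ U) * (1 / 64) ^ (ℓ / 2 + 1) := by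
    intro W U hU
    have hU' := Finset.mem_filter.1 hU
    have hd := frag_disjoint hU'.1
    have hq' : q ^ U.card = (64 * q) ^ U.card * (1 / 64) ^ U.card := by
      rw [← mul_pow]
      congr 1
      ring
    have hA := wt_mul_pow_le hr0 hq1 hd
    have hB : ((1 : ℝ) / 64) ^ U.card ≤ (1 / 64) ^ (ℓ / 2 + 1) :=
      pow_le_pow_of_le_one (by norm_num) (by norm_num) (by have := hU'.2; omega)
    calc wt (64 * q) W * q ^ U.card
        = (wt (64 * q) W * (64 * q) ^ U.card) * (1 / 64) ^ U.card := by rw [hq']; ring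
      _ ≤ wt (64 * q) (W ∪ U) * (1 / 64) ^ (ℓ / 2 + 1) :=
          mul_le_mul hA hB (by positivity) (wt_nonneg hr0 hq1 _)
  calc ∑ W : Finset X, wt (64 * q) W * cost q (bad F ℓ W)
      = ∑ W : Finset X, ∑ U ∈ bad F ℓ W, wt (64 * q) W * q ^ U.card := by
        refine Finset.sum_congr rfl (fun W _ => ?_)
        unfold cost
        rw [Finset.mul_sum]
    _ ≤ ∑ W : Finset X, ∑ U ∈ bad F ℓ W, wt (64 * q) (W ∪ U) * (1 / 64) ^ (ℓ / 2 + 1) :=
        Finset.sum_le_sum (fun W _ => Finset.sum_le_sum (fun U hU => hstep W U hU))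
    _ = (∑ p ∈ badPairs F ℓ, wt (64 * q) (p.1 ∪ p.2)) * (1 / 64) ^ (ℓ / 2 + 1) := by
        rw [sum_badPairs F ℓ (fun W U => wt (64 * q) (W ∪ U) * (1 / 64) ^ (ℓ / 2 + 1)),
          Finset.sum_mul]
    _ ≤ (2 ^ ℓ - 1) * (1 / 64) ^ (ℓ / 2 + 1) :=
        mul_le_mul_of_nonneg_right (sum_wt_badPairs_le hr0 hq1 F ℓ hF) (by positivity)
    _ = ((2 : ℝ) ^ ℓ - 1) / 64 ^ (ℓ / 2 + 1) := by
        rw [one_div, inv_pow, div_eq_mul_inv]

end Crest.Agent.Helper68.PP
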