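import Crest.Agent.Helper68.PP.Main

/-!
# Park–Pham with size-dependent densities (helper68; insurance package for S0076, row 55)

The cost of a cover is measured with a density `q t` depending on the SIZE `t` of the covering
set; the round that handles fragments of size in `(m/2, m]` uses the bias `R m ≥ 64 q t`.
Main result `pp_scaled`: an `ℓ`-bounded family that is not small for the size-dependent cost is
hit with probability `≥ 1/2` at bias `min 1 (∑_{j ≤ log₂ ℓ} R (ℓ / 2^j))`.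
(With `q` constant and `R = 64 q` this is `pp_notSmall`.)
-/

set_option autoImplicit false

namespace Crest.Agent.Helper68.PP

open Finset

variable {X : Type*} [Fintype X] [DecidableEq X]

/-- Cost of a family for size-dependent densities. -/
noncomputable def costS (q : ℕ → ℝ) (G : Finset (Finset X)) : ℝ := ∑ T ∈ G, (q T.card) ^ T.card

theorem costS_nonneg {q : ℕ → ℝ} (hq : ∀ t, 0 ≤ q t) (G : Finset (Finset X)) : 0 ≤ costS q G :=
  Finset.sum_nonneg (fun _ _ => pow_nonneg (hq _) _)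

theorem costS_union_le {q : ℕ → ℝ} (hq : ∀ t, 0 ≤ q t) (G B : Finset (Finset X)) :
    costS q (G ∪ B) ≤ costS q G + costS q B := by
  unfold costS
  have h := Finset.sum_union_inter (s₁ := G) (s₂ := B)
    (f := fun T : Finset X => (q T.card) ^ T.card)
  have h2 : 0 ≤ ∑ T ∈ G ∩ B, (q T.card) ^ T.card :=
    Finset.sum_nonneg (fun _ _ => pow_nonneg (hq _) _)
  linarith

theorem bad_card_le {F : Finset (Finset X)} {ℓ : ℕ} (hF : ∀ S ∈ F, S.card ≤ ℓ) {W U : Finset X}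
    (hU : U ∈ bad F ℓ W) : U.card ≤ ℓ := by
  have h1 := (mem_frags.1 (Finset.mem_filter.1 hU).1).1
  unfold resid at h1
  obtain ⟨S, hS, rfl⟩ := Finset.mem_image.1 h1
  exact (Finset.card_le_card Finset.sdiff_subset).trans (hF S hS)

/-- Round lemma for size-dependent densities. -/
theorem round_bound_scaled {q : ℕ → ℝ} (hq : ∀ t, 0 ≤ q t) {r : ℝ} (hr0 : 0 ≤ r) (hr1 : r ≤ 1)
    (F : Finset (Finset X)) (ℓ : ℕ) (hF : ∀ S ∈ F, S.card ≤ ℓ)
    (hdom : ∀ t, ℓ < 2 * t → t ≤ ℓ → 64 * q t ≤ r) :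
    ∑ W : Finset X, wt r W * costS q (bad F ℓ W) ≤ ((2 : ℝ) ^ ℓ - 1) / 64 ^ (ℓ / 2 + 1) := by
  have hstep : ∀ W : Finset X, ∀ U ∈ bad F ℓ W,
      wt r W * (q U.card) ^ U.card ≤ wt r (W ∪ U) * (1 / 64) ^ (ℓ / 2 + 1) := by
    intro W U hU
    have hU' := Finset.mem_filter.1 hU
    have hd := frag_disjoint hU'.1
    have hqU : q U.card ≤ r * (1 / 64) := by
      have := hdom U.card hU'.2 (bad_card_le hF hU)
      linarith
    have hq' : (q U.card) ^ U.card ≤ r ^ U.card * (1 / 64) ^ U.card := by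
      rw [← mul_pow]
      exact pow_le_pow_left₀ (hq _) hqU _
    have hA := wt_mul_pow_le hr0 hr1 hd
    have hB : ((1 : ℝ) / 64) ^ U.card ≤ (1 / 64) ^ (ℓ / 2 + 1) :=
      pow_le_pow_of_le_one (by norm_num) (by norm_num) (by have := hU'.2; omega)
    have hw := wt_nonneg hr0 hr1 W
    calc wt r W * (q U.card) ^ U.card
        ≤ wt r W * (r ^ U.card * (1 / 64) ^ U.card) := mul_le_mul_of_nonneg_left hq' hw
      _ = (wt r W * r ^ U.card) * (1 / 64) ^ U.card := by ring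
      _ ≤ wt r (W ∪ U) * (1 / 64) ^ (ℓ / 2 + 1) :=
          mul_le_mul hA hB (by positivity) (wt_nonneg hr0 hr1 _)
  calc ∑ W : Finset X, wt r W * costS q (bad F ℓ W)
      = ∑ W : Finset X, ∑ U ∈ bad F ℓ W, wt r W * (q U.card) ^ U.card := by
        refine Finset.sum_congr rfl (fun W _ => ?_)
        unfold costS
        rw [Finset.mul_sum]
    _ ≤ ∑ W : Finset X, ∑ U ∈ bad F ℓ W, wt r (W ∪ U) * (1 / 64) ^ (ℓ / 2 + 1) :=
        Finset.sum_le_sum (fun W _ => Finset.sum_le_sum (fun U hU => hstep W U hU))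
    _ = (∑ p ∈ badPairs F ℓ, wt r (p.1 ∪ p.2)) * (1 / 64) ^ (ℓ / 2 + 1) := by
        rw [sum_badPairs F ℓ (fun W U => wt r (W ∪ U) * (1 / 64) ^ (ℓ / 2 + 1)),
          Finset.sum_mul]
    _ ≤ (2 ^ ℓ - 1) * (1 / 64) ^ (ℓ / 2 + 1) :=
        mul_le_mul_of_nonneg_right (sum_wt_badPairs_le hr0 hr1 F ℓ hF) (by positivity)
    _ = ((2 : ℝ) ^ ℓ - 1) / 64 ^ (ℓ / 2 + 1) := by
        rw [one_div, inv_pow, div_eq_mul_inv]

/-- The bias reached after `k` rounds starting from the size bound `ℓ`: round `j` has bias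
`R (ℓ / 2^j)`. -/
noncomputable def bias (R : ℕ → ℝ) : ℕ → ℕ → ℝ
  | 0, _ => 0
  | k + 1, ℓ => 1 - (1 - R ℓ) * (1 - bias R k (ℓ / 2))

theorem div_pow_succ (ℓ j : ℕ) : ℓ / 2 / 2 ^ j = ℓ / 2 ^ (j + 1) := by
  rw [Nat.div_div_eq_div_mul, pow_succ, mul_comm]

theorem bias_bounds (R : ℕ → ℝ) :
    ∀ (k ℓ : ℕ), (∀ j, j < k → 0 ≤ R (ℓ / 2 ^ j) ∧ R (ℓ / 2 ^ j) ≤ 1) →
      0 ≤ bias R k ℓ ∧ bias R k ℓ ≤ 1 ∧ bias R k ℓ ≤ ∑ j ∈ Finset.range k, R (ℓ / 2 ^ j) := by
  intro k
  induction k with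
  | zero =>
    intro ℓ _
    simp [bias]
  | succ k ih =>
    intro ℓ hR
    have h0 := hR 0 (Nat.succ_pos k)
    rw [pow_zero, Nat.div_one] at h0
    have hR' : ∀ j, j < k → 0 ≤ R (ℓ / 2 / 2 ^ j) ∧ R (ℓ / 2 / 2 ^ j) ≤ 1 := by
      intro j hj
      rw [div_pow_succ]
      exact hR (j + 1) (Nat.succ_lt_succ hj)
    obtain ⟨i0, i1, i2⟩ := ih (ℓ / 2) hR'
    have hsum : ∑ j ∈ Finset.range (k + 1), R (ℓ / 2 ^ j)
        = R ℓ + ∑ j ∈ Finset.range k, R (ℓ / 2 / 2 ^ j) := by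
      rw [Finset.sum_range_succ', pow_zero, Nat.div_one, add_comm]
      congr 1
      exact Finset.sum_congr rfl (fun j _ => by rw [div_pow_succ])
    show 0 ≤ 1 - (1 - R ℓ) * (1 - bias R k (ℓ / 2)) ∧
      1 - (1 - R ℓ) * (1 - bias R k (ℓ / 2)) ≤ 1 ∧
      1 - (1 - R ℓ) * (1 - bias R k (ℓ / 2)) ≤ ∑ j ∈ Finset.range (k + 1), R (ℓ / 2 ^ j)
    rw [hsum]
    refine ⟨?_, ?_, ?_⟩
    · nlinarith [h0.1, h0.2]
    · nlinarith [h0.1, h0.2]
    · nlinarith [h0.1, h0.2]

/-- Main induction for size-dependent densities. -/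
theorem miss_bound_scaled {q : ℕ → ℝ} (hq : ∀ t, 0 ≤ q t) (R : ℕ → ℝ)
    (hdom : ∀ m t, m < 2 * t → t ≤ m → 64 * q t ≤ R m) :
    ∀ (k ℓ : ℕ) (F : Finset (Finset X)), ℓ < 2 ^ k → (∀ S ∈ F, S.card ≤ ℓ) →
      (∀ j, j < k → 0 ≤ R (ℓ / 2 ^ j) ∧ R (ℓ / 2 ^ j) ≤ 1) →
      ∀ c : ℝ, (∀ G : Finset (Finset X), Covers G F → c ≤ costS q G) →
        c * miss (bias R k ℓ) F ≤ (1 / 4) * (1 - (1 / 2) ^ ℓ) := by
  intro k
  induction k with
  | zero =>
    intro ℓ F hℓ hF _ c hc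
    have hℓ0 : ℓ = 0 := by simpa using hℓ
    subst hℓ0
    show c * miss 0 F ≤ _
    rw [miss_zero, pow_zero, sub_self, mul_zero]
    by_cases h0 : (∅ : Finset X) ∈ F
    · rw [if_pos h0, mul_zero]
    · rw [if_neg h0, mul_one]
      have hcov : Covers (∅ : Finset (Finset X)) F := by
        intro S hS
        have hS0 : S = ∅ := Finset.card_eq_zero.1 (Nat.le_zero.1 (hF S hS))
        rw [hS0] at hS
        exact absurd hS h0
      have := hc ∅ hcov
      simpa [costS] using this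
  | succ k ih =>
    intro ℓ F hℓ hF hR c hc
    have hb0 : (0 : ℝ) ≤ (1 / 4) * (1 - (1 / 2) ^ ℓ) := by
      have : ((1 : ℝ) / 2) ^ ℓ ≤ 1 := pow_le_one₀ (by norm_num) (by norm_num)
      nlinarith
    have h0 := hR 0 (Nat.succ_pos k)
    rw [pow_zero, Nat.div_one] at h0
    have hR' : ∀ j, j < k → 0 ≤ R (ℓ / 2 / 2 ^ j) ∧ R (ℓ / 2 / 2 ^ j) ≤ 1 := by
      intro j hj
      rw [div_pow_succ]
      exact hR (j + 1) (Nat.succ_lt_succ hj)
    obtain ⟨hρ0, hρ1, -⟩ := bias_bounds R k (ℓ / 2) hR'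
    obtain ⟨hρ0', hρ1', -⟩ := bias_bounds R (k + 1) ℓ hR
    rcases le_or_gt c 0 with hc0 | hc0
    · have := miss_nonneg hρ0' hρ1' F
      nlinarith
    · show c * miss (1 - (1 - R ℓ) * (1 - bias R k (ℓ / 2))) F ≤ _
      rw [miss_union, Finset.mul_sum]
      have hℓ2 : ℓ / 2 < 2 ^ k := by
        rw [pow_succ] at hℓ
        omega
      have hterm : ∀ W : Finset X,
          c * (wt (R ℓ) W * miss (bias R k (ℓ / 2)) (resid F W))
            ≤ wt (R ℓ) W * costS q (bad F ℓ W)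
              + wt (R ℓ) W * ((1 / 4) * (1 - (1 / 2) ^ (ℓ / 2))) := by
        intro W
        have hw := wt_nonneg h0.1 h0.2 W
        have hm1 : miss (bias R k (ℓ / 2)) (resid F W)
            ≤ miss (bias R k (ℓ / 2)) (good F ℓ W) :=
          miss_anti hρ0 hρ1 (fun W' h => hits_good h)
        have hcG : ∀ G : Finset (Finset X), Covers G (good F ℓ W) →
            c - costS q (bad F ℓ W) ≤ costS q G := by
          intro G hG
          have h1 := hc (G ∪ bad F ℓ W) (covers_union hG)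
          have h2 := costS_union_le hq G (bad F ℓ W)
          linarith
        have hih := ih (ℓ / 2) (good F ℓ W) hℓ2 (fun U hU => good_card hU) hR'
          (c - costS q (bad F ℓ W)) hcG
        have hmg0 := miss_nonneg hρ0 hρ1 (good F ℓ W)
        have hmg1 := miss_le_one hρ0 hρ1 (good F ℓ W)
        have hcb := costS_nonneg hq (bad F ℓ W)
        have hmain : c * miss (bias R k (ℓ / 2)) (resid F W)
            ≤ costS q (bad F ℓ W) + (1 / 4) * (1 - (1 / 2) ^ (ℓ / 2)) := by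
          have e1 : c * miss (bias R k (ℓ / 2)) (resid F W)
              ≤ c * miss (bias R k (ℓ / 2)) (good F ℓ W) :=
            mul_le_mul_of_nonneg_left hm1 hc0.le
          have e2 : costS q (bad F ℓ W) * miss (bias R k (ℓ / 2)) (good F ℓ W)
              ≤ costS q (bad F ℓ W) := by
            nlinarith
          nlinarith
        calc c * (wt (R ℓ) W * miss (bias R k (ℓ / 2)) (resid F W))
            = wt (R ℓ) W * (c * miss (bias R k (ℓ / 2)) (resid F W)) := by ring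
          _ ≤ wt (R ℓ) W * (costS q (bad F ℓ W) + (1 / 4) * (1 - (1 / 2) ^ (ℓ / 2))) :=
              mul_le_mul_of_nonneg_left hmain hw
          _ = _ := by ring
      calc ∑ W : Finset X, c * (wt (R ℓ) W * miss (bias R k (ℓ / 2)) (resid F W))
          ≤ ∑ W : Finset X, (wt (R ℓ) W * costS q (bad F ℓ W)
              + wt (R ℓ) W * ((1 / 4) * (1 - (1 / 2) ^ (ℓ / 2)))) :=
            Finset.sum_le_sum (fun W _ => hterm W)
        _ = ∑ W : Finset X, wt (R ℓ) W * costS q (bad F ℓ W)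
              + (1 / 4) * (1 - (1 / 2) ^ (ℓ / 2)) := by
            rw [Finset.sum_add_distrib, ← Finset.sum_mul, sum_wt, one_mul]
        _ ≤ ((2 : ℝ) ^ ℓ - 1) / 64 ^ (ℓ / 2 + 1) + (1 / 4) * (1 - (1 / 2) ^ (ℓ / 2)) := by
            have := round_bound_scaled hq h0.1 h0.2 F ℓ hF (fun t h1 h2 => hdom ℓ t h1 h2)
            linarith
        _ ≤ (1 / 4) * (1 - (1 / 2) ^ ℓ) := eps_step ℓ

/-- **Park–Pham with size-dependent densities.**  `q t` is the density charged to covering sets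
of size `t`; `R m ≥ 64 q t` for all sizes `t ∈ (m/2, m]`.  If the `ℓ`-bounded family `F` has no
cover of (size-dependent) cost `≤ 1/2`, then a Bernoulli subset of bias
`min 1 (∑_{j ≤ ⌊log₂ ℓ⌋} R (ℓ / 2^j))` contains a member of `F` with probability `≥ 1/2`. -/
theorem pp_scaled (F : Finset (Finset X)) (ℓ : ℕ) (hF : ∀ S ∈ F, S.card ≤ ℓ)
    (q : ℕ → ℝ) (hq : ∀ t, 0 ≤ q t) (R : ℕ → ℝ) (hR0 : ∀ m, 0 ≤ R m)
    (hdom : ∀ m t, m < 2 * t → t ≤ m → 64 * q t ≤ R m)
    (hns : ∀ G : Finset (Finset X), (∀ S ∈ F, ∃ T ∈ G, T ⊆ S) →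
      1 / 2 < ∑ T ∈ G, (q T.card) ^ T.card) :
    1 / 2 ≤ Crest.FinProb.bernoulliProb
      (min 1 (∑ j ∈ Finset.range (Nat.log 2 ℓ + 1), R (ℓ / 2 ^ j)))
      {ω : X → Bool | ∃ S ∈ F, ∀ x ∈ S, ω x = true} := by
  change 1 / 2 ≤ Crest.FinProb.bernoulliProb _ (hitEvent F)
  rw [bernoulliProb_hits]
  have hne : F.Nonempty := by
    by_contra hempty
    rw [Finset.not_nonempty_iff_eq_empty] at hempty
    have := hns ∅ (by intro S hS; rw [hempty] at hS; exact absurd hS (Finset.notMem_empty _))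
    simp at this
    linarith
  set k : ℕ := Nat.log 2 ℓ + 1 with hk
  set sumR : ℝ := ∑ j ∈ Finset.range k, R (ℓ / 2 ^ j) with hsumR
  rcases le_or_gt 1 sumR with hbig | hsmall
  · rw [min_eq_left hbig, miss_one hne]
    norm_num
  · rw [min_eq_right hsmall.le]
    have hRseq : ∀ j, j < k → 0 ≤ R (ℓ / 2 ^ j) ∧ R (ℓ / 2 ^ j) ≤ 1 := by
      intro j hj
      refine ⟨hR0 _, ?_⟩
      have : R (ℓ / 2 ^ j) ≤ sumR :=
        Finset.single_le_sum (f := fun j => R (ℓ / 2 ^ j)) (fun i _ => hR0 _)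
          (Finset.mem_range.2 hj)
      linarith
    have hℓ : ℓ < 2 ^ k := Nat.lt_pow_succ_log_self (by norm_num) ℓ
    have hmb := miss_bound_scaled hq R hdom k ℓ F hℓ hF hRseq (1 / 2)
      (fun G hG => (hns G hG).le)
    have hpow : ((1 : ℝ) / 2) ^ ℓ ≥ 0 := by positivity
    have hmiss : miss (bias R k ℓ) F ≤ 1 / 2 := by nlinarith
    obtain ⟨hb0, -, hb2⟩ := bias_bounds R k ℓ hRseq
    have := miss_mono hb0 hb2 hsmall.le F
    linarith

/-- Size-dependent spread version for an indexed family: every nonempty `T` lies in at most a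
`(q |T|)^|T|` fraction of the sets `S i`. -/
theorem pp_scaled_spread {I : Type*} [Fintype I] [Nonempty I] (S : I → Finset X) (ℓ : ℕ)
    (hS : ∀ i, (S i).card ≤ ℓ) (q : ℕ → ℝ) (hq : ∀ t, 0 ≤ q t) (R : ℕ → ℝ) (hR0 : ∀ m, 0 ≤ R m)
    (hdom : ∀ m t, m < 2 * t → t ≤ m → 64 * q t ≤ R m)
    (hsp : ∀ T : Finset X, T.Nonempty →
      ((Finset.univ.filter (fun i => T ⊆ S i)).card : ℝ)
        ≤ (q T.card) ^ T.card * (Fintype.card I : ℝ)) :
    1 / 2 ≤ Crest.FinProb.bernoulliProb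
      (min 1 (∑ j ∈ Finset.range (Nat.log 2 ℓ + 1), R (ℓ / 2 ^ j)))
      {ω : X → Bool | ∃ i, ∀ x ∈ S i, ω x = true} := by
  classical
  have hset : {ω : X → Bool | ∃ i, ∀ x ∈ S i, ω x = true}
      = {ω : X → Bool | ∃ T ∈ (Finset.univ.image S), ∀ x ∈ T, ω x = true} := by
    ext ω
    simp
  rw [hset]
  refine pp_scaled (Finset.univ.image S) ℓ ?_ q hq R hR0 hdom ?_
  · intro T hT
    obtain ⟨i, -, rfl⟩ := Finset.mem_image.1 hT
    exact hS i
  · intro G hG
    have hI : (0 : ℝ) < (Fintype.card I : ℝ) := by exact_mod_cast Fintype.card_pos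
    by_cases h0 : (∅ : Finset X) ∈ G
    · have : (q (∅ : Finset X).card) ^ (∅ : Finset X).card ≤ ∑ T ∈ G, (q T.card) ^ T.card :=
        Finset.single_le_sum (f := fun T : Finset X => (q T.card) ^ T.card)
          (fun T _ => pow_nonneg (hq _) _) h0
      simp at this
      linarith
    · have hcount : (Fintype.card I : ℝ)
          ≤ ∑ T ∈ G, ((Finset.univ.filter (fun i => T ⊆ S i)).card : ℝ) := by
        have h1 : (Finset.univ : Finset I)
            ⊆ G.biUnion (fun T => Finset.univ.filter (fun i => T ⊆ S i)) := by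
          intro i _
          obtain ⟨T, hT, hTS⟩ := hG (S i) (Finset.mem_image_of_mem _ (Finset.mem_univ i))
          exact Finset.mem_biUnion.2 ⟨T, hT, Finset.mem_filter.2 ⟨Finset.mem_univ _, hTS⟩⟩
        have h2 := (Finset.card_le_card h1).trans Finset.card_biUnion_le
        rw [Finset.card_univ] at h2
        exact_mod_cast h2
      have hle : ∑ T ∈ G, ((Finset.univ.filter (fun i => T ⊆ S i)).card : ℝ)
          ≤ ∑ T ∈ G, (q T.card) ^ T.card * (Fintype.card I : ℝ) := by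
        refine Finset.sum_le_sum (fun T hT => hsp T ?_)
        rw [Finset.nonempty_iff_ne_empty]
        rintro rfl
        exact h0 hT
      rw [← Finset.sum_mul] at hle
      have : (Fintype.card I : ℝ) ≤ (∑ T ∈ G, (q T.card) ^ T.card) * (Fintype.card I : ℝ) :=
        hcount.trans hle
      have h1 : 1 ≤ ∑ T ∈ G, (q T.card) ^ T.card := by
        by_contra hlt
        have hlt' := not_le.1 hlt
        nlinarith
      linarith

end Crest.Agent.Helper68.PP
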