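import Mathlib
import Crest.Prelude.Def_FinProb

/-!
# Bernoulli weights on finsets (helper68, insurance package for S0076 / Park–Pham)

`wt p W = p ^ |W| * (1 - p) ^ (N - |W|)` is the Bernoulli(`p`) weight of the subset `W` of a
finite type.  We prove: total mass one, the bridge to `Crest.FinProb.bernoulliWeight`, and the
union identity `Bern(a) ∪ Bern(b) = Bern(1 - (1-a)(1-b))`.
-/

set_option autoImplicit false

namespace Crest.Agent.Helper68.PP

open Finset

variable {X : Type*} [Fintype X] [DecidableEq X]

/-- Bernoulli(`p`) weight of the subset `W`. -/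
noncomputable def wt (p : ℝ) (W : Finset X) : ℝ :=
  p ^ W.card * (1 - p) ^ (Fintype.card X - W.card)

theorem wt_nonneg {p : ℝ} (h0 : 0 ≤ p) (h1 : p ≤ 1) (W : Finset X) : 0 ≤ wt p W := by
  unfold wt
  have : 0 ≤ 1 - p := by linarith
  positivity

theorem sum_wt (p : ℝ) : ∑ W : Finset X, wt p W = 1 := by
  unfold wt
  rw [Fintype.sum_pow_mul_eq_add_pow X p (1 - p)]
  simp

/-- The set of coordinates where `ω` is `true`. -/
def trueSet (ω : X → Bool) : Finset X := univ.filter (fun x => ω x = true)

@[simp] theorem mem_trueSet {ω : X → Bool} {x : X} : x ∈ trueSet ω ↔ ω x = true := by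
  simp [trueSet]

/-- The equivalence between outcomes and subsets. -/
def setEquiv : (X → Bool) ≃ Finset X where
  toFun := trueSet
  invFun := fun W x => decide (x ∈ W)
  left_inv := by
    intro ω
    funext x
    simp
  right_inv := by
    intro W
    ext x
    simp

@[simp] theorem setEquiv_apply (ω : X → Bool) : setEquiv ω = trueSet ω := rfl

theorem trueSet_or (ω ω' : X → Bool) :
    trueSet (fun x => ω x || ω' x) = trueSet ω ∪ trueSet ω' := by
  ext x
  simp

theorem bernoulliWeight_eq_wt (p : ℝ) (ω : X → Bool) :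
    Crest.FinProb.bernoulliWeight p ω = wt p (trueSet ω) := by
  unfold Crest.FinProb.bernoulliWeight wt
  rw [Finset.prod_ite, Finset.prod_const, Finset.prod_const]
  congr 2
  have h : (univ.filter (fun x => ¬ ω x = true)) = univ \ trueSet ω := by
    ext x
    simp
  rw [h, Finset.card_sdiff_of_subset (Finset.subset_univ _), Finset.card_univ]

/-- Sums over outcomes are sums over subsets. -/
theorem sum_outcomes (f : Finset X → ℝ) :
    ∑ ω : X → Bool, f (trueSet ω) = ∑ W : Finset X, f W :=
  Fintype.sum_equiv setEquiv _ _ (fun _ => rfl)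

/-- One coordinate of the union identity. -/
theorem coord_union (a b : ℝ) (t : Bool) :
    ∑ s : Bool × Bool, (if (s.1 || s.2) = t then
        (if s.1 then a else 1 - a) * (if s.2 then b else 1 - b) else 0)
      = if t then 1 - (1 - a) * (1 - b) else 1 - (1 - (1 - a) * (1 - b)) := by
  cases t <;> simp [Fintype.sum_prod_type] <;> ring

/-- Union identity, one target outcome. -/
theorem bw_union_point (a b : ℝ) (η : X → Bool) :
    ∑ ω : X → Bool, ∑ ω' : X → Bool,
      (if (fun x => ω x || ω' x) = η then
        Crest.FinProb.bernoulliWeight a ω * Crest.FinProb.bernoulliWeight b ω' else 0)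
      = Crest.FinProb.bernoulliWeight (1 - (1 - a) * (1 - b)) η := by
  unfold Crest.FinProb.bernoulliWeight
  have h1 : ∀ ω ω' : X → Bool,
      (if (fun x => ω x || ω' x) = η then
        (∏ i, if ω i then a else 1 - a) * (∏ i, if ω' i then b else 1 - b) else 0)
      = ∏ x, (if (ω x || ω' x) = η x then
          (if ω x then a else 1 - a) * (if ω' x then b else 1 - b) else 0) := by
    intro ω ω'
    rw [Finset.prod_ite_zero, ← Finset.prod_mul_distrib]
    simp only [funext_iff, Finset.mem_univ, forall_true_left]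
  simp_rw [h1]
  rw [← Fintype.sum_prod_type']
  rw [← Finset.prod_congr rfl (fun x _ => coord_union a b (η x))]
  rw [Fintype.prod_sum]
  exact Fintype.sum_equiv (Equiv.arrowProdEquivProdArrow X (fun _ => Bool) (fun _ => Bool)).symm
    _ _ (fun _ => rfl)

/-- Union identity for outcomes. -/
theorem bw_union (a b : ℝ) (g : (X → Bool) → ℝ) :
    ∑ ω : X → Bool, ∑ ω' : X → Bool,
      Crest.FinProb.bernoulliWeight a ω * Crest.FinProb.bernoulliWeight b ω' *
        g (fun x => ω x || ω' x)
      = ∑ η : X → Bool, Crest.FinProb.bernoulliWeight (1 - (1 - a) * (1 - b)) η * g η := by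
  have h : ∀ ω ω' : X → Bool,
      Crest.FinProb.bernoulliWeight a ω * Crest.FinProb.bernoulliWeight b ω' *
        g (fun x => ω x || ω' x)
      = ∑ η : X → Bool, (if (fun x => ω x || ω' x) = η then
          Crest.FinProb.bernoulliWeight a ω * Crest.FinProb.bernoulliWeight b ω' else 0) * g η := by
    intro ω ω'
    rw [Finset.sum_eq_single (fun x => ω x || ω' x)]
    · simp
    · intro η _ hne
      rw [if_neg (Ne.symm hne), zero_mul]
    · intro h
      exact absurd (Finset.mem_univ _) h
  simp_rw [h]
  rw [Finset.sum_congr rfl (fun ω _ => Finset.sum_comm)]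
  rw [Finset.sum_comm]
  refine Finset.sum_congr rfl (fun η _ => ?_)
  rw [← bw_union_point a b η, Finset.sum_mul]
  refine Finset.sum_congr rfl (fun ω _ => ?_)
  rw [Finset.sum_mul]

/-- Union identity for subsets: `Bern(a) ∪ Bern(b) = Bern(1 - (1-a)(1-b))`. -/
theorem wt_union (a b : ℝ) (f : Finset X → ℝ) :
    ∑ W : Finset X, ∑ W' : Finset X, wt a W * wt b W' * f (W ∪ W')
      = ∑ Z : Finset X, wt (1 - (1 - a) * (1 - b)) Z * f Z := by
  have h := bw_union a b (fun ω : X → Bool => f (trueSet ω))
  simp only [bernoulliWeight_eq_wt, trueSet_or] at h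
  rw [sum_outcomes (fun Z => wt (1 - (1 - a) * (1 - b)) Z * f Z)] at h
  rw [← h, ← sum_outcomes (fun W => ∑ W' : Finset X, wt a W * wt b W' * f (W ∪ W'))]
  refine Finset.sum_congr rfl (fun ω _ => ?_)
  exact (sum_outcomes (fun W' => wt a (trueSet ω) * wt b W' * f (trueSet ω ∪ W'))).symm

/-- Weight transfer: for disjoint `W`, `U`, `wt r W * r ^ |U| ≤ wt r (W ∪ U)`. -/
theorem wt_mul_pow_le {r : ℝ} (h0 : 0 ≤ r) (h1 : r ≤ 1) {W U : Finset X} (hd : Disjoint W U) :
    wt r W * r ^ U.card ≤ wt r (W ∪ U) := by
  unfold wt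
  have hc : (W ∪ U).card = W.card + U.card := Finset.card_union_of_disjoint hd
  have hle : W.card + U.card ≤ Fintype.card X := by
    rw [← hc]; exact Finset.card_le_univ _
  have hs : Fintype.card X - W.card = (Fintype.card X - (W.card + U.card)) + U.card := by omega
  rw [hc, hs, pow_add, pow_add]
  have h1r : 0 ≤ 1 - r := by linarith
  have hU : (1 - r) ^ U.card ≤ 1 := pow_le_one₀ h1r (by linarith)
  have hA : 0 ≤ r ^ W.card * r ^ U.card * (1 - r) ^ (Fintype.card X - (W.card + U.card)) := by
    positivity
  nlinarith [mul_le_mul_of_nonneg_left hU hA]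

end Crest.Agent.Helper68.PP
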